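import Mathlib
import Vale.Agent.P069.Defs
import Vale.Agent.P069.Refl
import Vale.Agent.P069.Amuc
import Vale.Agent.P069.Tree

/-!
# P069: a reflexive AMUC Banach space which is not AUC renormable
-/

open scoped ENNReal

namespace Vale.Agent.Results.P069.Disproof

open Vale.Agent.P069

/-- There is a reflexive infinite-dimensional Banach space with an equivalent asymptotically midpoint
uniformly convex norm but without an equivalent asymptotically uniformly convex norm. -/
theorem result : ∃ (X : Type) (_ : NormedAddCommGroup X) (_ : NormedSpace ℝ X),
    CompleteSpace X ∧ ¬ FiniteDimensional ℝ X ∧ IsReflexive X ∧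
      AMUCRenormable X ∧ ¬ AUCRenormable X := by
  refine ⟨XX, inferInstance, inferInstance, inferInstance, ?_, ?_, amuc_XX, not_auc_XX⟩
  · intro h
    exact not_auc_XX (auc_of_finiteDimensional XX)
  · exact reflexive_lsum (fun n => Xn n)
      (fun n => reflexive_of_equiv (equivH n).symm (reflexive_hilbert (H n)))

end Vale.Agent.Results.P069.Disproof
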